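import Mathlib

namespace Vale.Agent.Lib.P201

variable {K G : Type*} [Field K] [Group G]

/-- in a torsion-free group, `n ↦ k^n * v` is injective for `k ≠ 1` -/
lemma inj_left (hG : ∀ g : G, ∀ n : ℕ, 0 < n → g ^ n = 1 → g = 1) (k v : G) (hk : k ≠ 1) :
    Function.Injective (fun n : ℕ => k ^ n * v) := by
  have key : ∀ i j : ℕ, i < j → k ^ i * v ≠ k ^ j * v := by
    intro i j hij heq
    have h1 : k ^ i = k ^ j := mul_right_cancel heq
    have h2 : k ^ j = k ^ i * k ^ (j - i) := by
      rw [← pow_add]; congr 1; omega
    have h3 : k ^ (j - i) = 1 := by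
      have : k ^ i * 1 = k ^ i * k ^ (j - i) := by rw [mul_one, ← h2, h1]
      exact (mul_left_cancel this).symm
    exact hk (hG k (j - i) (by omega) h3)
  intro i j hij
  by_contra hne
  rcases Nat.lt_or_gt_of_ne hne with h | h
  · exact key i j h hij
  · exact key j i h hij.symm

lemma inj_right (hG : ∀ g : G, ∀ n : ℕ, 0 < n → g ^ n = 1 → g = 1) (k v : G) (hk : k ≠ 1) :
    Function.Injective (fun n : ℕ => v * k ^ n) := by
  have key : ∀ i j : ℕ, i < j → v * k ^ i ≠ v * k ^ j := by
    intro i j hij heq
    have h1 : k ^ i = k ^ j := mul_left_cancel heq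
    have h2 : k ^ j = k ^ i * k ^ (j - i) := by
      rw [← pow_add]; congr 1; omega
    have h3 : k ^ (j - i) = 1 := by
      have : k ^ i * 1 = k ^ i * k ^ (j - i) := by rw [mul_one, ← h2, h1]
      exact (mul_left_cancel this).symm
    exact hk (hG k (j - i) (by omega) h3)
  intro i j hij
  by_contra hne
  rcases Nat.lt_or_gt_of_ne hne with h | h
  · exact key i j h hij
  · exact key j i h hij.symm

/-- a nonzero element with at most two group elements in its support is not a left zero
divisor -/
theorem left_small (hG : ∀ g : G, ∀ n : ℕ, 0 < n → g ^ n = 1 → g = 1)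
    (α β : MonoidAlgebra K G) (hα : α ≠ 0) (hcard : α.coeff.support.card ≤ 2) (h : α * β = 0) :
    β = 0 := by
  classical
  by_contra hβ
  obtain ⟨v, hv⟩ : ∃ v, β.coeff v ≠ 0 := by
    by_contra hne
    simp only [not_exists, not_not] at hne
    exact hβ (MonoidAlgebra.coeff_eq_zero.mp (Finsupp.ext hne))
  have hpos : 0 < α.coeff.support.card :=
    Finset.card_pos.mpr (Finsupp.support_nonempty_iff.mpr (fun hh => hα (MonoidAlgebra.coeff_eq_zero.mp hh)))
  have hmul : ∀ w, (α * β).coeff w = ∑ a ∈ α.coeff.support, α.coeff a * β.coeff (a⁻¹ * w) := by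
    intro w
    rw [MonoidAlgebra.coeff_mul_apply_left]; rfl
  rcases Nat.lt_or_ge α.coeff.support.card 2 with hlt | hge
  · have hc : α.coeff.support.card = 1 := by omega
    obtain ⟨x, hx⟩ := Finset.card_eq_one.mp hc
    have hax : α.coeff x ≠ 0 := by
      rw [← Finsupp.mem_support_iff, hx]; simp
    have := hmul (x * v)
    rw [h, hx, Finset.sum_singleton] at this
    simp only [inv_mul_cancel_left] at this
    have h0 : α.coeff x * β.coeff v = 0 := by simpa using this.symm
    rcases mul_eq_zero.mp h0 with h1 | h1
    · exact hax h1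
    · exact hv h1
  · have hc : α.coeff.support.card = 2 := by omega
    obtain ⟨x, y, hxy, hs⟩ := Finset.card_eq_two.mp hc
    have hay : α.coeff y ≠ 0 := by
      rw [← Finsupp.mem_support_iff, hs]; simp
    have key : ∀ w, α.coeff x * β.coeff (x⁻¹ * w) + α.coeff y * β.coeff (y⁻¹ * w) = 0 := by
      intro w
      have := hmul w
      rw [h, hs, Finset.sum_pair hxy] at this
      simpa using this.symm
    have hk : x⁻¹ * y ≠ 1 := by
      intro hk1
      exact hxy (by rw [inv_mul_eq_one] at hk1; exact hk1)
    have step : ∀ u, β.coeff u ≠ 0 → β.coeff (x⁻¹ * y * u) ≠ 0 := by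
      intro u hu hcon
      have := key (y * u)
      rw [← mul_assoc, hcon, mul_zero, zero_add, inv_mul_cancel_left] at this
      rcases mul_eq_zero.mp this with h1 | h1
      · exact hay h1
      · exact hu h1
    have all : ∀ n : ℕ, β.coeff ((x⁻¹ * y) ^ n * v) ≠ 0 := by
      intro n
      induction n with
      | zero => simpa using hv
      | succ n ih =>
          have := step _ ih
          rw [← mul_assoc, ← pow_succ'] at this
          exact this
    have hinf := Set.infinite_range_of_injective (inj_left hG (x⁻¹ * y) v hk)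
    apply hinf
    apply Set.Finite.subset β.coeff.support.finite_toSet
    rintro _ ⟨n, rfl⟩
    simp only [Finset.mem_coe, Finsupp.mem_support_iff]
    exact all n

/-- a nonzero element with at most two group elements in its support is not a right zero
divisor -/
theorem right_small (hG : ∀ g : G, ∀ n : ℕ, 0 < n → g ^ n = 1 → g = 1)
    (α β : MonoidAlgebra K G) (hβ : β ≠ 0) (hcard : β.coeff.support.card ≤ 2) (h : α * β = 0) :
    α = 0 := by
  classical
  by_contra hα
  obtain ⟨v, hv⟩ : ∃ v, α.coeff v ≠ 0 := by
    by_contra hne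
    simp only [not_exists, not_not] at hne
    exact hα (MonoidAlgebra.coeff_eq_zero.mp (Finsupp.ext hne))
  have hpos : 0 < β.coeff.support.card :=
    Finset.card_pos.mpr (Finsupp.support_nonempty_iff.mpr (fun hh => hβ (MonoidAlgebra.coeff_eq_zero.mp hh)))
  have hmul : ∀ w, (α * β).coeff w = ∑ b ∈ β.coeff.support, α.coeff (w * b⁻¹) * β.coeff b := by
    intro w
    rw [MonoidAlgebra.coeff_mul_apply_right]; rfl
  rcases Nat.lt_or_ge β.coeff.support.card 2 with hlt | hge
  · have hc : β.coeff.support.card = 1 := by omega
    obtain ⟨x, hx⟩ := Finset.card_eq_one.mp hc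
    have hbx : β.coeff x ≠ 0 := by
      rw [← Finsupp.mem_support_iff, hx]; simp
    have := hmul (v * x)
    rw [h, hx, Finset.sum_singleton] at this
    simp only [mul_inv_cancel_right] at this
    have h0 : α.coeff v * β.coeff x = 0 := by simpa using this.symm
    rcases mul_eq_zero.mp h0 with h1 | h1
    · exact hv h1
    · exact hbx h1
  · have hc : β.coeff.support.card = 2 := by omega
    obtain ⟨x, y, hxy, hs⟩ := Finset.card_eq_two.mp hc
    have hby : β.coeff y ≠ 0 := by
      rw [← Finsupp.mem_support_iff, hs]; simp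
    have key : ∀ w, α.coeff (w * x⁻¹) * β.coeff x + α.coeff (w * y⁻¹) * β.coeff y = 0 := by
      intro w
      have := hmul w
      rw [h, hs, Finset.sum_pair hxy] at this
      simpa using this.symm
    have hk : y * x⁻¹ ≠ 1 := by
      intro hk1
      exact hxy (by rw [mul_inv_eq_one] at hk1; exact hk1.symm)
    have step : ∀ u, α.coeff u ≠ 0 → α.coeff (u * (y * x⁻¹)) ≠ 0 := by
      intro u hu hcon
      have := key (u * y)
      rw [mul_assoc, hcon, zero_mul, zero_add, mul_inv_cancel_right] at this
      rcases mul_eq_zero.mp this with h1 | h1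
      · exact hu h1
      · exact hby h1
    have all : ∀ n : ℕ, α.coeff (v * (y * x⁻¹) ^ n) ≠ 0 := by
      intro n
      induction n with
      | zero => simpa using hv
      | succ n ih =>
          have := step _ ih
          rw [mul_assoc, ← pow_succ] at this
          exact this
    have hinf := Set.infinite_range_of_injective (inj_right hG (y * x⁻¹) v hk)
    apply hinf
    apply Set.Finite.subset α.coeff.support.finite_toSet
    rintro _ ⟨n, rfl⟩
    simp only [Finset.mem_coe, Finsupp.mem_support_iff]
    exact all n

end Vale.Agent.Lib.P201
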